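import Mathlib
import Vale.Agent.P034.Main

namespace Vale.Agent.Results.P034.Talagrand

open Finset

/-- The integral expectation threshold `q(F)`: the largest `p ∈ [0,1]` such that some cover `G`
of `F` has cost `∑_{S ∈ G} p^|S| ≤ 1/2`. -/
noncomputable def q {X : Type} (F : Finset (Finset X)) : ℝ :=
  sSup {p : ℝ | p ∈ Set.Icc (0 : ℝ) 1 ∧ ∃ G : Finset (Finset X),
    (∀ H ∈ F, ∃ S ∈ G, S ⊆ H) ∧ ∑ S ∈ G, p ^ S.card ≤ 1 / 2}

/-- The fractional expectation threshold `q_f(F)`: the largest `p ∈ [0,1]` such that some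
fractional cover `g` of `F` has cost `∑_S g(S) p^|S| ≤ 1/2`. -/
noncomputable def qf {X : Type} [Fintype X] (F : Finset (Finset X)) : ℝ :=
  sSup {p : ℝ | p ∈ Set.Icc (0 : ℝ) 1 ∧ ∃ g : Finset X → ℝ,
    (∀ S, g S ∈ Set.Icc (0 : ℝ) 1) ∧ (∀ H ∈ F, 1 ≤ ∑ S ∈ H.powerset, g S) ∧
      ∑ S : Finset X, g S * p ^ S.card ≤ 1 / 2}

theorem result : ∃ K : ℝ, ∀ (X : Type) [Fintype X] [Nonempty X] (F : Finset (Finset X)),
    F.Nonempty → ∅ ∉ F → (∀ A ∈ F, ∀ B : Finset X, A ⊆ B → B ∈ F) → qf F ≤ K * q F := by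
  refine ⟨1572864, fun X _ _ F _ _ _ => ?_⟩
  classical
  have hq : 0 ≤ q F := Real.sSup_nonneg fun p hp => hp.1.1
  refine Real.sSup_le ?_ (by positivity)
  rintro p ⟨⟨hp0, hp1⟩, g, hg, hF, hw⟩
  rcases hp0.eq_or_lt with rfl | hp
  · positivity
  obtain ⟨G, hG, hc⟩ := Vale.Agent.P034.rounding (fun S => (hg S).1) hF hp hw
  have : p / 1572864 ≤ q F :=
    le_csSup ⟨1, fun r hr => hr.1.2⟩ ⟨⟨by positivity, by linarith⟩, G, hG, hc⟩
  linarith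

end Vale.Agent.Results.P034.Talagrand
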